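import Mathlib
import Crest.Prelude.Def_ModularData

/-!
# S0112, package C (Tomita field) — helper69's independent track

Self-contained (Mathlib + `Crest.Prelude.Def_ModularData` only).

* toolkit: cut-offs `cut m`, clamped half exponentials `expClamp c`, norm bound of the calculus,
  strong convergence `cut m (D) x → x`, spectral-subspace lemmas;
* C2: `S.J (a ξ) = g(D) (a⋆ ξ)` when `a⋆ ξ` is supported in a bounded set `K` and `g = e^{u/2}` on `K`;
* C3: KMS identity; C4: its consequences for the flow;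
* C1: `f(D) ξ = f(0) ξ`, `U_t ξ = ξ`.
-/

set_option autoImplicit false

namespace Crest.Agent.Helper69.S0112

open Crest.OpAlg Filter Topology
open scoped BoundedContinuousFunction InnerProductSpace

variable {H : Type*} [NormedAddCommGroup H] [InnerProductSpace ℂ H] [CompleteSpace H]

/-! ## Calculus toolkit -/

theorem norm_apply_le (D : LineCalculus H) (f : ℝ →ᵇ ℂ) : ‖D.apply f‖ ≤ ‖f‖ :=
  NonUnitalStarAlgHom.norm_apply_le D.apply f

theorem norm_apply_apply_le (D : LineCalculus H) (f : ℝ →ᵇ ℂ) (x : H) :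
    ‖D.apply f x‖ ≤ ‖f‖ * ‖x‖ :=
  ((D.apply f).le_opNorm x).trans (mul_le_mul_of_nonneg_right (norm_apply_le D f) (norm_nonneg x))

theorem apply_mul (D : LineCalculus H) (f g : ℝ →ᵇ ℂ) (x : H) :
    D.apply (f * g) x = D.apply f (D.apply g x) := by
  rw [map_mul]; rfl

theorem apply_comm (D : LineCalculus H) (f g : ℝ →ᵇ ℂ) (x : H) :
    D.apply f (D.apply g x) = D.apply g (D.apply f x) := by
  rw [← apply_mul, ← apply_mul, mul_comm]

theorem inner_star_left (A : H →L[ℂ] H) (x y : H) : ⟪star A x, y⟫_ℂ = ⟪x, A y⟫_ℂ := by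
  rw [ContinuousLinearMap.star_eq_adjoint, ContinuousLinearMap.adjoint_inner_left]

theorem inner_star_right (A : H →L[ℂ] H) (x y : H) : ⟪x, star A y⟫_ℂ = ⟪A x, y⟫_ℂ := by
  rw [ContinuousLinearMap.star_eq_adjoint, ContinuousLinearMap.adjoint_inner_right]

theorem inner_apply_left (D : LineCalculus H) (f : ℝ →ᵇ ℂ) (x y : H) :
    ⟪D.apply f x, y⟫_ℂ = ⟪x, D.apply (star f) y⟫_ℂ := by
  rw [map_star, ContinuousLinearMap.star_eq_adjoint, ContinuousLinearMap.adjoint_inner_right]

theorem inner_apply_right (D : LineCalculus H) (f : ℝ →ᵇ ℂ) (x y : H) :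
    ⟪x, D.apply f y⟫_ℂ = ⟪D.apply (star f) x, y⟫_ℂ := by
  rw [inner_apply_left, star_star]

/-- Two functions that agree on `K` act in the same way on the spectral subspace of `K`. -/
theorem apply_congr_of_supported (D : LineCalculus H) {K : Set ℝ} {x : H}
    (hx : D.SupportedIn K x) {f g : ℝ →ᵇ ℂ} (hfg : ∀ u ∈ K, f u = g u) :
    D.apply f x = D.apply g x := by
  have h := hx (f - g) (fun u hu => by simp [hfg u hu])
  rw [map_sub, sub_apply, sub_eq_zero] at h
  exact h

/-- The spectral subspace of `K` is stable under the calculus. -/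
theorem supported_apply (D : LineCalculus H) {K : Set ℝ} {x : H}
    (hx : D.SupportedIn K x) (g : ℝ →ᵇ ℂ) : D.SupportedIn K (D.apply g x) := by
  intro f hf
  rw [apply_comm, hx f hf, map_zero]

/-! ### Cut-off functions -/

/-- The trapezoid cut-off: `1` on `[-m, m]`, `0` off `[-(m+1), m+1]`, values in `[0, 1]`. -/
noncomputable def cut (m : ℕ) : ℝ →ᵇ ℂ :=
  BoundedContinuousFunction.ofNormedAddCommGroup
    (fun u : ℝ => ((max 0 (min 1 ((m : ℝ) + 1 - |u|)) : ℝ) : ℂ)) (by fun_prop) 1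
    (fun u => by
      rw [Complex.norm_real, Real.norm_eq_abs, abs_of_nonneg (le_max_left _ _)]
      exact max_le zero_le_one (min_le_left _ _))

theorem cut_apply (m : ℕ) (u : ℝ) :
    cut m u = ((max 0 (min 1 ((m : ℝ) + 1 - |u|)) : ℝ) : ℂ) := rfl

theorem cut_eq_one {m : ℕ} {u : ℝ} (hu : |u| ≤ m) : cut m u = 1 := by
  rw [cut_apply, min_eq_left (by linarith), max_eq_right zero_le_one, Complex.ofReal_one]

theorem cut_eq_zero {m : ℕ} {u : ℝ} (hu : (m : ℝ) + 1 ≤ |u|) : cut m u = 0 := by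
  rw [cut_apply, min_eq_right (by linarith), max_eq_left (by linarith), Complex.ofReal_zero]

theorem norm_cut_le (m : ℕ) : ‖cut m‖ ≤ 1 :=
  BoundedContinuousFunction.norm_ofNormedAddCommGroup_le _ zero_le_one _

theorem star_cut (m : ℕ) : star (cut m) = cut m := by
  ext u
  simp [cut_apply]

theorem hasCompactSupport_cut (m : ℕ) : HasCompactSupport (cut m : ℝ → ℂ) := by
  refine HasCompactSupport.intro (isCompact_Icc (a := -((m : ℝ) + 1)) (b := (m : ℝ) + 1)) ?_
  intro u hu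
  apply cut_eq_zero
  by_contra h
  push Not at h
  exact hu ⟨by linarith [neg_abs_le u], by linarith [le_abs_self u]⟩

/-- A bounded set is contained in `[-m, m]` for some natural `m`. -/
theorem exists_nat_abs_le {K : Set ℝ} (hK : Bornology.IsBounded K) :
    ∃ m : ℕ, ∀ u ∈ K, |u| ≤ m := by
  obtain ⟨R, hR⟩ := hK.exists_norm_le
  obtain ⟨m, hm⟩ := exists_nat_ge R
  exact ⟨m, fun u hu => (hR u hu).trans hm⟩

/-- A compactly supported function is unchanged by large cut-offs. -/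
theorem exists_cut_mul_eq {f : ℝ →ᵇ ℂ} (hf : HasCompactSupport (f : ℝ → ℂ)) :
    ∃ m₀ : ℕ, ∀ m : ℕ, m₀ ≤ m → cut m * f = f := by
  obtain ⟨m₀, hm₀⟩ := exists_nat_abs_le hf.isCompact.isBounded
  refine ⟨m₀, fun m hm => ?_⟩
  ext u
  rw [BoundedContinuousFunction.mul_apply]
  by_cases hu : u ∈ tsupport (f : ℝ → ℂ)
  · rw [cut_eq_one ((hm₀ u hu).trans (by exact_mod_cast hm)), one_mul]
  · rw [image_eq_zero_of_notMem_tsupport hu, mul_zero]

/-- **A2.** The cut-offs of `D` converge strongly to the identity. -/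
theorem tendsto_cut_apply (D : LineCalculus H) (x : H) :
    Tendsto (fun m : ℕ => D.apply (cut m) x) atTop (𝓝 x) := by
  rw [Metric.tendsto_atTop]
  intro ε hε
  obtain ⟨f, hfc, hf⟩ := D.window x (ε / 2) (by positivity)
  obtain ⟨m₀, hm₀⟩ := exists_cut_mul_eq hfc
  refine ⟨m₀, fun m hm => ?_⟩
  have h1 : D.apply (cut m) x - x
      = D.apply (cut m) (x - D.apply f x) + (D.apply f x - x) := by
    rw [map_sub, ← apply_mul, hm₀ m hm]; abel
  rw [dist_eq_norm, h1]
  have h2 : ‖D.apply (cut m) (x - D.apply f x)‖ ≤ ‖x - D.apply f x‖ := by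
    refine (norm_apply_apply_le D (cut m) _).trans ?_
    exact (mul_le_mul_of_nonneg_right (norm_cut_le m) (norm_nonneg _)).trans (by rw [one_mul])
  have h3 : ‖x - D.apply f x‖ = ‖D.apply f x - x‖ := norm_sub_rev _ _
  calc ‖D.apply (cut m) (x - D.apply f x) + (D.apply f x - x)‖
      ≤ ‖D.apply (cut m) (x - D.apply f x)‖ + ‖D.apply f x - x‖ := norm_add_le _ _
    _ < ε := by linarith

/-! ### Clamped half exponentials -/

/-- `u ↦ exp (min u c / 2)`: equal to `e^{u/2}` on `(-∞, c]`, bounded by `e^{c/2}`. -/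
noncomputable def expClamp (c : ℝ) : ℝ →ᵇ ℂ :=
  BoundedContinuousFunction.ofNormedAddCommGroup
    (fun u : ℝ => ((Real.exp (min u c / 2) : ℝ) : ℂ)) (by fun_prop) (Real.exp (c / 2))
    (fun u => by
      rw [Complex.norm_real, Real.norm_eq_abs, abs_of_pos (Real.exp_pos _)]
      exact Real.exp_le_exp.mpr (by linarith [min_le_right u c]))

theorem expClamp_apply (c u : ℝ) : expClamp c u = ((Real.exp (min u c / 2) : ℝ) : ℂ) := rfl

theorem expClamp_of_le {c u : ℝ} (hu : u ≤ c) : expClamp c u = ((Real.exp (u / 2) : ℝ) : ℂ) := by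
  rw [expClamp_apply, min_eq_left hu]

theorem norm_expClamp_le (c : ℝ) : ‖expClamp c‖ ≤ Real.exp (c / 2) :=
  BoundedContinuousFunction.norm_ofNormedAddCommGroup_le _ (Real.exp_pos _).le _

theorem star_expClamp (c : ℝ) : star (expClamp c) = expClamp c := by
  ext u
  simp only [BoundedContinuousFunction.star_apply, expClamp_apply, Complex.star_def,
    Complex.conj_ofReal]

/-- `cut m · e^{u/2}` as a bounded continuous function. -/
noncomputable def ecut (m : ℕ) : ℝ →ᵇ ℂ := cut m * expClamp ((m : ℝ) + 1)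

theorem ecut_apply (m : ℕ) (u : ℝ) : ecut m u = cut m u * ((Real.exp (u / 2) : ℝ) : ℂ) := by
  rw [ecut, BoundedContinuousFunction.mul_apply]
  by_cases hu : |u| ≤ (m : ℝ) + 1
  · rw [expClamp_of_le ((le_abs_self u).trans hu)]
  · rw [cut_eq_zero (le_of_not_ge hu), zero_mul, zero_mul]

/-- `cut m · e^{u}` as a bounded continuous function. -/
noncomputable def ecut2 (m : ℕ) : ℝ →ᵇ ℂ := ecut m * expClamp ((m : ℝ) + 1)

theorem ecut2_apply (m : ℕ) (u : ℝ) : ecut2 m u = cut m u * ((Real.exp u : ℝ) : ℂ) := by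
  rw [ecut2, BoundedContinuousFunction.mul_apply, ecut_apply]
  by_cases hu : |u| ≤ (m : ℝ) + 1
  · rw [expClamp_of_le ((le_abs_self u).trans hu), mul_assoc, ← Complex.ofReal_mul,
      ← Real.exp_add, add_halves]
  · rw [cut_eq_zero (le_of_not_ge hu), zero_mul, zero_mul, zero_mul]

theorem ecut2_eq_mul (m : ℕ) (u : ℝ) :
    ecut2 m u = ecut m u * ((Real.exp (u / 2) : ℝ) : ℂ) := by
  rw [ecut2_apply, ecut_apply, mul_assoc, ← Complex.ofReal_mul, ← Real.exp_add, add_halves]

theorem star_ecut (m : ℕ) : star (ecut m) = ecut m := by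
  rw [ecut, star_mul', star_cut, star_expClamp]

theorem star_ecut2 (m : ℕ) : star (ecut2 m) = ecut2 m := by
  rw [ecut2, star_mul', star_ecut, star_expClamp]

/-! ## The modular conjugation is antiunitary -/

theorem inner_J_J (S : ModularDatum H) (x y : H) : ⟪S.J x, S.J y⟫_ℂ = ⟪y, x⟫_ℂ := by
  have hJ : ∀ z : H, ‖S.J z‖ = ‖z‖ := fun z => S.J.norm_map z
  have h1 : S.J x + S.J y = S.J (x + y) := (map_add S.J x y).symm
  have h2 : S.J x - S.J y = S.J (x - y) := (map_sub S.J x y).symm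
  have h3 : S.J x + Complex.I • S.J y = S.J (x - Complex.I • y) := by
    rw [map_sub, LinearIsometryEquiv.map_smulₛₗ]; simp
  have h4 : S.J x - Complex.I • S.J y = S.J (x + Complex.I • y) := by
    rw [map_add, LinearIsometryEquiv.map_smulₛₗ, Complex.conj_I, neg_smul, sub_eq_add_neg]
  rw [inner_eq_sum_norm_sq_div_four (S.J x) (S.J y), inner_eq_sum_norm_sq_div_four y x]
  simp only [RCLike.I_to_complex]
  rw [h1, h2, h3, h4, hJ, hJ, hJ, hJ]
  have e1 : ‖y + x‖ = ‖x + y‖ := by rw [add_comm]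
  have e2 : ‖y - x‖ = ‖x - y‖ := norm_sub_rev _ _
  have e3 : ‖y - Complex.I • x‖ = ‖x + Complex.I • y‖ := by
    have : y - Complex.I • x = (-Complex.I) • (x + Complex.I • y) := by
      rw [smul_add, smul_smul, neg_mul, Complex.I_mul_I, neg_neg, one_smul, neg_smul]; abel
    rw [this, norm_smul]; simp
  have e4 : ‖y + Complex.I • x‖ = ‖x - Complex.I • y‖ := by
    have : y + Complex.I • x = Complex.I • (x - Complex.I • y) := by
      rw [smul_sub, smul_smul, Complex.I_mul_I, neg_one_smul]; abel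
    rw [this, norm_smul]; simp
  rw [e1, e2, e3, e4]

/-! ## The Tomita field -/

/-- Every pair `(a ξ, a⋆ ξ)` with `a ∈ M` lies in the graph of `J ∘ exp(D/2)`. -/
theorem halfExp_of_mem (S : ModularDatum H) {a : H →L[ℂ] H} (ha : a ∈ S.M) :
    S.D.HalfExp (a S.vac) (S.J (star a S.vac)) := by
  have h : ((a S.vac, star a S.vac) : H × H) ∈
      closure (Set.range fun b : S.M => ((b : H →L[ℂ] H) S.vac, star (b : H →L[ℂ] H) S.vac)) :=
    subset_closure ⟨⟨a, ha⟩, rfl⟩
  rw [S.tomita] at h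
  exact h

theorem halfExp_star_of_mem (S : ModularDatum H) {a : H →L[ℂ] H} (ha : a ∈ S.M) :
    S.D.HalfExp (star a S.vac) (S.J (a S.vac)) := by
  have h := halfExp_of_mem S (star_mem ha)
  rwa [star_star] at h

/-- **C2.** If `a⋆ ξ` lies in the spectral subspace of a bounded set `K` and `g = e^{u/2}` on `K`,
then `J (a ξ) = g(D) (a⋆ ξ)`. -/
theorem J_apply_vac (S : ModularDatum H) {a : H →L[ℂ] H} (ha : a ∈ S.M) {K : Set ℝ}
    (hK : Bornology.IsBounded K) (hsupp : S.D.SupportedIn K (star a S.vac))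
    (g : ℝ →ᵇ ℂ) (hg : ∀ u ∈ K, g u = ((Real.exp (u / 2) : ℝ) : ℂ)) :
    S.J (a S.vac) = S.D.apply g (star a S.vac) := by
  obtain ⟨m₀, hm₀⟩ := exists_nat_abs_le hK
  have hH := halfExp_star_of_mem S ha
  have key : ∀ m : ℕ, m₀ ≤ m →
      S.D.apply (cut m) (S.J (a S.vac)) = S.D.apply g (star a S.vac) := by
    intro m hm
    rw [hH (cut m) (ecut m) (fun u => ecut_apply m u)]
    refine apply_congr_of_supported S.D hsupp (fun u hu => ?_)
    rw [ecut_apply, cut_eq_one ((hm₀ u hu).trans (by exact_mod_cast hm)), one_mul, hg u hu]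
  refine tendsto_nhds_unique (tendsto_cut_apply S.D (S.J (a S.vac))) ?_
  refine tendsto_const_nhds.congr' ?_
  filter_upwards [eventually_ge_atTop m₀] with m hm
  exact (key m hm).symm

/-- **C2, norm bound.** If `a⋆ ξ` is supported in a bounded `K ⊆ (-∞, β]`, then
`‖a ξ‖ ≤ e^{β/2} ‖a⋆ ξ‖`. -/
theorem norm_vac_le (S : ModularDatum H) {a : H →L[ℂ] H} (ha : a ∈ S.M) {K : Set ℝ}
    (hK : Bornology.IsBounded K) (hsupp : S.D.SupportedIn K (star a S.vac))
    {β : ℝ} (hβ : ∀ u ∈ K, u ≤ β) :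
    ‖a S.vac‖ ≤ Real.exp (β / 2) * ‖star a S.vac‖ := by
  have h := J_apply_vac S ha hK hsupp (expClamp β) (fun u hu => expClamp_of_le (hβ u hu))
  have h1 : ‖a S.vac‖ = ‖S.D.apply (expClamp β) (star a S.vac)‖ := by
    rw [← h, LinearIsometryEquiv.norm_map]
  rw [h1]
  exact (norm_apply_apply_le S.D _ _).trans
    (mul_le_mul_of_nonneg_right (norm_expClamp_le β) (norm_nonneg _))

/-- **C2, symmetric norm bound.** If `a ξ` is supported in a bounded `K ⊆ (-∞, β]`, then
`‖a⋆ ξ‖ ≤ e^{β/2} ‖a ξ‖`. -/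
theorem norm_star_vac_le (S : ModularDatum H) {a : H →L[ℂ] H} (ha : a ∈ S.M) {K : Set ℝ}
    (hK : Bornology.IsBounded K) (hsupp : S.D.SupportedIn K (a S.vac))
    {β : ℝ} (hβ : ∀ u ∈ K, u ≤ β) :
    ‖star a S.vac‖ ≤ Real.exp (β / 2) * ‖a S.vac‖ := by
  have h := norm_vac_le S (star_mem ha) hK (by rwa [star_star]) hβ
  rwa [star_star] at h

/-- **C3 (KMS identity).** For `a, y ∈ M` with `a⋆ ξ` supported in a bounded set `K`, and
`g₂ = e^{u}` on `K`:  `⟪y⋆ ξ, a ξ⟫ = ⟪g₂(D) (a⋆ ξ), y ξ⟫`. -/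
theorem kms (S : ModularDatum H) {a y : H →L[ℂ] H} (ha : a ∈ S.M) (hy : y ∈ S.M) {K : Set ℝ}
    (hK : Bornology.IsBounded K) (hsupp : S.D.SupportedIn K (star a S.vac))
    (g₂ : ℝ →ᵇ ℂ) (hg₂ : ∀ u ∈ K, g₂ u = ((Real.exp u : ℝ) : ℂ)) :
    ⟪star y S.vac, a S.vac⟫_ℂ = ⟪S.D.apply g₂ (star a S.vac), y S.vac⟫_ℂ := by
  obtain ⟨m, hm⟩ := exists_nat_abs_le hK
  have hJa : S.J (a S.vac) = S.D.apply (ecut m) (star a S.vac) :=
    J_apply_vac S ha hK hsupp (ecut m) (fun u hu => by
      rw [ecut_apply, cut_eq_one (hm u hu), one_mul])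
  have hHy : S.D.apply (ecut m) (S.J (star y S.vac)) = S.D.apply (ecut2 m) (y S.vac) :=
    halfExp_of_mem S hy (ecut m) (ecut2 m) (fun u => ecut2_eq_mul m u)
  have hlast : S.D.apply (ecut2 m) (star a S.vac) = S.D.apply g₂ (star a S.vac) :=
    apply_congr_of_supported S.D hsupp (fun u hu => by
      rw [ecut2_apply, cut_eq_one (hm u hu), one_mul, hg₂ u hu])
  calc ⟪star y S.vac, a S.vac⟫_ℂ
      = ⟪S.J (a S.vac), S.J (star y S.vac)⟫_ℂ := (inner_J_J S _ _).symm
    _ = ⟪S.D.apply (ecut m) (star a S.vac), S.J (star y S.vac)⟫_ℂ := by rw [hJa]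
    _ = ⟪star a S.vac, S.D.apply (ecut m) (S.J (star y S.vac))⟫_ℂ := by
        rw [inner_apply_left, star_ecut]
    _ = ⟪star a S.vac, S.D.apply (ecut2 m) (y S.vac)⟫_ℂ := by rw [hHy]
    _ = ⟪S.D.apply (ecut2 m) (star a S.vac), y S.vac⟫_ℂ := by
        rw [inner_apply_right, star_ecut2]
    _ = ⟪S.D.apply g₂ (star a S.vac), y S.vac⟫_ℂ := by rw [hlast]

/-! ## The unitary group -/

theorem character_apply (t u : ℝ) :
    LineCalculus.character t u = Complex.exp (Complex.I * ((t * u : ℝ) : ℂ)) := rfl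

theorem character_mul (s t : ℝ) :
    LineCalculus.character s * LineCalculus.character t = LineCalculus.character (s + t) := by
  ext u
  rw [BoundedContinuousFunction.mul_apply, character_apply, character_apply, character_apply,
    ← Complex.exp_add]
  congr 1
  push_cast
  ring

theorem character_zero : LineCalculus.character 0 = 1 := by
  ext u
  rw [character_apply]
  simp

theorem star_character (t : ℝ) :
    star (LineCalculus.character t) = LineCalculus.character (-t) := by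
  ext u
  rw [BoundedContinuousFunction.star_apply, character_apply, character_apply, Complex.star_def,
    ← Complex.exp_conj]
  congr 1
  simp only [map_mul, Complex.conj_I, Complex.conj_ofReal]
  push_cast
  ring

theorem wave_def (D : LineCalculus H) (t : ℝ) :
    D.wave t = D.apply (LineCalculus.character t) := rfl

theorem wave_mul (D : LineCalculus H) (s t : ℝ) : D.wave s * D.wave t = D.wave (s + t) := by
  rw [wave_def, wave_def, wave_def, ← map_mul, character_mul]

theorem wave_zero (D : LineCalculus H) : D.wave 0 = 1 := by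
  rw [wave_def, character_zero, map_one]

theorem star_wave (D : LineCalculus H) (t : ℝ) : star (D.wave t) = D.wave (-t) := by
  rw [wave_def, wave_def, ← map_star, star_character]

theorem wave_neg_wave (D : LineCalculus H) (t : ℝ) (x : H) : D.wave (-t) (D.wave t x) = x := by
  have h := wave_mul D (-t) t
  rw [neg_add_cancel, wave_zero] at h
  have h2 := congrArg (fun A : H →L[ℂ] H => A x) h
  simpa using h2

theorem wave_wave_neg (D : LineCalculus H) (t : ℝ) (x : H) : D.wave t (D.wave (-t) x) = x := by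
  have h := wave_neg_wave D (-t) x
  rwa [neg_neg] at h

theorem wave_apply_comm (D : LineCalculus H) (t : ℝ) (f : ℝ →ᵇ ℂ) (x : H) :
    D.wave t (D.apply f x) = D.apply f (D.wave t x) :=
  apply_comm D _ _ x

theorem supported_wave (D : LineCalculus H) {K : Set ℝ} {x : H} (hx : D.SupportedIn K x)
    (t : ℝ) : D.SupportedIn K (D.wave t x) :=
  supported_apply D hx _

theorem norm_wave (D : LineCalculus H) (t : ℝ) (x : H) : ‖D.wave t x‖ = ‖x‖ := by
  have h1 : ⟪D.wave t x, D.wave t x⟫_ℂ = ⟪x, x⟫_ℂ := by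
    rw [wave_def, inner_apply_left, star_character, ← wave_def, ← wave_def, wave_neg_wave]
  have h2 : ‖D.wave t x‖ ^ 2 = ‖x‖ ^ 2 := by
    have := congrArg Complex.re h1
    rw [inner_self_eq_norm_sq_to_K, inner_self_eq_norm_sq_to_K] at this
    exact_mod_cast this
  exact (sq_eq_sq₀ (norm_nonneg _) (norm_nonneg _)).mp h2

/-! ## C4: consequences of the KMS identity for the flow -/

theorem flow_def (S : ModularDatum H) (t : ℝ) (a : H →L[ℂ] H) :
    S.flow t a = S.D.wave t * a * S.D.wave (-t) := rfl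

theorem flow_mem (S : ModularDatum H) (t : ℝ) {a : H →L[ℂ] H} (ha : a ∈ S.M) :
    S.flow t a ∈ S.M := S.flow_mem t a ha

theorem star_flow (S : ModularDatum H) (t : ℝ) (a : H →L[ℂ] H) :
    star (S.flow t a) = S.flow t (star a) := by
  rw [flow_def, flow_def, star_mul, star_mul, star_wave, star_wave, neg_neg, mul_assoc]

theorem flow_apply (S : ModularDatum H) (t : ℝ) (a : H →L[ℂ] H) (x : H) :
    S.flow t a x = S.D.wave t (a (S.D.wave (-t) x)) := rfl

theorem flow_vac (S : ModularDatum H) (hvac : ∀ t, S.D.wave t S.vac = S.vac) (t : ℝ)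
    (a : H →L[ℂ] H) : S.flow t a S.vac = S.D.wave t (a S.vac) := by
  rw [flow_apply, hvac]

/-- **C4 (first part).** With `z = g₂(D)(a⋆ ξ)` (“`Δ a⋆ ξ`”) and `w = a z`, for `x = σ_t(a)` and
`r ∈ M`:  `⟪x ξ, r x ξ⟫ = ⟪U_t w, r ξ⟫`. -/
theorem kms_flow (S : ModularDatum H) (hvac : ∀ t, S.D.wave t S.vac = S.vac)
    {a r : H →L[ℂ] H} (ha : a ∈ S.M) (hr : r ∈ S.M) {K : Set ℝ}
    (hK : Bornology.IsBounded K) (hsupp : S.D.SupportedIn K (star a S.vac))
    (g₂ : ℝ →ᵇ ℂ) (hg₂ : ∀ u ∈ K, g₂ u = ((Real.exp u : ℝ) : ℂ)) (t : ℝ) :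
    ⟪S.flow t a S.vac, r (S.flow t a S.vac)⟫_ℂ
      = ⟪S.D.wave t (a (S.D.apply g₂ (star a S.vac))), r S.vac⟫_ℂ := by
  have hx : S.flow t a ∈ S.M := flow_mem S t ha
  have hsx : star (S.flow t a) S.vac = S.D.wave t (star a S.vac) := by
    rw [star_flow, flow_vac S hvac]
  have hsuppx : S.D.SupportedIn K (star (S.flow t a) S.vac) := by
    rw [hsx]; exact supported_wave S.D hsupp t
  have hy : star (S.flow t a) * r ∈ S.M := mul_mem (star_mem hx) hr
  have h := kms S hx hy hK hsuppx g₂ hg₂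
  have e1 : star (star (S.flow t a) * r) S.vac = star r (S.flow t a S.vac) := by
    rw [star_mul, star_star]; rfl
  have e2 : (star (S.flow t a) * r) S.vac = star (S.flow t a) (r S.vac) := rfl
  rw [e1, e2, hsx, ← wave_apply_comm] at h
  have l1 : ⟪star r (S.flow t a S.vac), S.flow t a S.vac⟫_ℂ
      = ⟪S.flow t a S.vac, r (S.flow t a S.vac)⟫_ℂ := inner_star_left _ _ _
  have l2 : ⟪S.D.wave t (S.D.apply g₂ (star a S.vac)), star (S.flow t a) (r S.vac)⟫_ℂ
      = ⟪S.flow t a (S.D.wave t (S.D.apply g₂ (star a S.vac))), r S.vac⟫_ℂ :=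
    inner_star_right _ _ _
  have l3 : S.flow t a (S.D.wave t (S.D.apply g₂ (star a S.vac)))
      = S.D.wave t (a (S.D.apply g₂ (star a S.vac))) := by
    rw [flow_apply, wave_neg_wave]
  rw [l1, l2, l3] at h
  exact h

/-- **C4 (second part).** `⟪ξ, a z⟫ = ‖a ξ‖²` for `z = g₂(D)(a⋆ ξ)`. -/
theorem inner_vac_apply (S : ModularDatum H) {a : H →L[ℂ] H} (ha : a ∈ S.M) {K : Set ℝ}
    (hK : Bornology.IsBounded K) (hsupp : S.D.SupportedIn K (star a S.vac))
    (g₂ : ℝ →ᵇ ℂ) (hg₂ : ∀ u ∈ K, g₂ u = ((Real.exp u : ℝ) : ℂ)) :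
    ⟪S.vac, a (S.D.apply g₂ (star a S.vac))⟫_ℂ = ((‖a S.vac‖ : ℝ) : ℂ) ^ 2 := by
  have h := kms S ha (star_mem ha) hK hsupp g₂ hg₂
  rw [star_star, inner_self_eq_norm_sq_to_K] at h
  have h1 : ⟪S.vac, a (S.D.apply g₂ (star a S.vac))⟫_ℂ
      = ⟪star a S.vac, S.D.apply g₂ (star a S.vac)⟫_ℂ := (inner_star_left _ _ _).symm
  rw [h1, ← inner_conj_symm, ← h]
  simp

end Crest.Agent.Helper69.S0112
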