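import Mathlib
import Crest.Prelude.Def_ModularData
import Crest.Agent.Helper69.S0112.Tomita

/-!
# S0112, package C1 — the vacuum is the spectral vector of `D` at `0`

`apply_vac : S.D.apply f S.vac = f 0 • S.vac` for every bounded continuous `f`, hence
`wave_vac : S.D.wave t S.vac = S.vac`.

Proof.  (a) `(ξ, ξ)` lies in the Tomita graph; (b) the identity `⟪p.2, ξ⟫ = ⟪ξ, p.1⟫` holds on the
range `{(aξ, a⋆ξ)}`, hence on its closure, and the pairs `((ψ χ_m)(D) z, J (ψ χ_m e^{u/2})(D) z)` lie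
in the graph.  Together: `(ψ χ_m (1 - e^u))(D) ξ = 0`.  A resolvent-type approximation
(`rho N = N(1-e^u)/(1+N(1-e^u)^2)`) then gives `(g χ_m)(D) ξ = 0` whenever `g 0 = 0`; finally
`χ_m(D) ξ → ξ`.
-/

set_option autoImplicit false

namespace Crest.Agent.Helper69.S0112

open Crest.OpAlg Filter Topology
open scoped BoundedContinuousFunction InnerProductSpace

variable {H : Type*} [NormedAddCommGroup H] [InnerProductSpace ℂ H] [CompleteSpace H]

/-- The identity `⟪p.2, ξ⟫ = ⟪ξ, p.1⟫` on the Tomita graph. -/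
theorem pairing_of_halfExp (S : ModularDatum H) {x y : H} (h : S.D.HalfExp x (S.J y)) :
    ⟪y, S.vac⟫_ℂ = ⟪S.vac, x⟫_ℂ := by
  have hmem : ((x, y) : H × H) ∈
      closure (Set.range fun b : S.M => ((b : H →L[ℂ] H) S.vac, star (b : H →L[ℂ] H) S.vac)) := by
    rw [S.tomita]; exact h
  have hclosed : IsClosed {p : H × H | ⟪p.2, S.vac⟫_ℂ = ⟪S.vac, p.1⟫_ℂ} :=
    isClosed_eq (by fun_prop) (by fun_prop)
  have hsub : (Set.range fun b : S.M => ((b : H →L[ℂ] H) S.vac, star (b : H →L[ℂ] H) S.vac))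
      ⊆ {p : H × H | ⟪p.2, S.vac⟫_ℂ = ⟪S.vac, p.1⟫_ℂ} := by
    rintro _ ⟨b, rfl⟩
    exact inner_star_left _ _ _
  exact closure_minimal hsub hclosed hmem

/-- `(ξ, ξ)` lies in the Tomita graph. -/
theorem halfExp_vac (S : ModularDatum H) : S.D.HalfExp S.vac (S.J S.vac) := by
  have h := halfExp_of_mem S (one_mem S.M)
  simpa using h

/-- Step (b): `(ψ χ_m e^{u/2})(D) (J ξ) = (ψ χ_m)(D) ξ`. -/
theorem apply_ecut_J_vac (S : ModularDatum H) (ψ : ℝ →ᵇ ℂ) (m : ℕ) :
    S.D.apply (ψ * ecut m) (S.J S.vac) = S.D.apply (ψ * cut m) S.vac := by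
  refine ext_inner_right ℂ (fun z => ?_)
  have hH : S.D.HalfExp (S.D.apply (star ψ * cut m) z)
      (S.J (S.J (S.D.apply (star ψ * ecut m) z))) := by
    rw [S.J_J]
    intro f g hfg
    rw [← apply_mul, ← apply_mul]
    congr 2
    ext u
    simp only [BoundedContinuousFunction.mul_apply, ecut_apply, hfg u]
    ring
  have hp := pairing_of_halfExp S hH
  have h1 : ⟪S.J (S.D.apply (star ψ * ecut m) z), S.vac⟫_ℂ
      = ⟪S.J S.vac, S.D.apply (star ψ * ecut m) z⟫_ℂ := by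
    conv_lhs => rw [← S.J_J S.vac]
    exact inner_J_J S _ _
  rw [h1, inner_apply_right, inner_apply_right] at hp
  have e1 : star (star ψ * ecut m) = ψ * ecut m := by rw [star_mul', star_star, star_ecut]
  have e2 : star (star ψ * cut m) = ψ * cut m := by rw [star_mul', star_star, star_cut]
  rw [e1, e2] at hp
  exact hp

/-- Step (a)+(b): `(ψ χ_m)(D) ξ = (ψ χ_m e^{u})(D) ξ`. -/
theorem apply_cut_vac_eq (S : ModularDatum H) (ψ : ℝ →ᵇ ℂ) (m : ℕ) :
    S.D.apply (ψ * cut m) S.vac = S.D.apply (ψ * ecut2 m) S.vac := by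
  rw [← apply_ecut_J_vac]
  exact halfExp_vac S (ψ * ecut m) (ψ * ecut2 m) (fun u => by
    simp only [BoundedContinuousFunction.mul_apply, ecut2_eq_mul]
    ring)

theorem apply_mul_cut_sub_vac (S : ModularDatum H) (ψ : ℝ →ᵇ ℂ) (m : ℕ) :
    S.D.apply (ψ * (cut m - ecut2 m)) S.vac = 0 := by
  rw [mul_sub, map_sub, sub_apply, apply_cut_vac_eq, sub_self]

/-! ### The approximate inverse of `1 - e^u` -/

theorem rho_bound (N : ℕ) (t : ℝ) :
    |(N : ℝ) * t / (1 + (N : ℝ) * t ^ 2)| ≤ (N : ℝ) + 1 := by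
  have hN : (0 : ℝ) ≤ N := Nat.cast_nonneg N
  have hd : (0 : ℝ) < 1 + (N : ℝ) * t ^ 2 := by positivity
  rw [abs_div, abs_of_pos hd, div_le_iff₀ hd, abs_mul, abs_of_nonneg hN]
  have h1 : |t| ≤ 1 + t ^ 2 := by
    have := sq_nonneg (|t| - 1)
    have h2 : |t| ^ 2 = t ^ 2 := sq_abs t
    nlinarith [abs_nonneg t]
  have h3 : (0 : ℝ) ≤ (N : ℝ) * t ^ 2 := by positivity
  have h4 : (N : ℝ) * |t| ≤ (N : ℝ) * (1 + t ^ 2) := mul_le_mul_of_nonneg_left h1 hN
  nlinarith [mul_nonneg hN h3]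

/-- `rho N u = N (1 - e^u) / (1 + N (1 - e^u)^2)`. -/
noncomputable def rho (N : ℕ) : ℝ →ᵇ ℂ :=
  BoundedContinuousFunction.ofNormedAddCommGroup
    (fun u : ℝ => (((N : ℝ) * (1 - Real.exp u) / (1 + (N : ℝ) * (1 - Real.exp u) ^ 2) : ℝ) : ℂ))
    (Complex.continuous_ofReal.comp
      (Continuous.div (by fun_prop) (by fun_prop) (fun u => by positivity)))
    ((N : ℝ) + 1)
    (fun u => by
      rw [Complex.norm_real, Real.norm_eq_abs]
      exact rho_bound N _)

theorem rho_apply (N : ℕ) (u : ℝ) :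
    rho N u = (((N : ℝ) * (1 - Real.exp u) / (1 + (N : ℝ) * (1 - Real.exp u) ^ 2) : ℝ) : ℂ) := rfl

/-- The error term of the approximation, pointwise. -/
theorem approx_pointwise (g : ℝ →ᵇ ℂ) (m N : ℕ) (u : ℝ) :
    (g * cut m - (g * rho N) * (cut m - ecut2 m)) u
      = g u * cut m u * ((1 / (1 + (N : ℝ) * (1 - Real.exp u) ^ 2) : ℝ) : ℂ) := by
  have hd : (1 + (N : ℝ) * (1 - Real.exp u) ^ 2) ≠ 0 := by positivity
  have hd' : ((1 : ℂ) + (N : ℂ) * (1 - Complex.exp (u : ℂ)) ^ 2) ≠ 0 := by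
    have := Complex.ofReal_ne_zero.mpr hd
    push_cast at this
    exact this
  simp only [BoundedContinuousFunction.sub_apply, BoundedContinuousFunction.mul_apply,
    ecut2_apply, rho_apply]
  push_cast
  generalize Complex.exp (u : ℂ) = E at hd' ⊢
  field_simp
  ring

theorem one_sub_exp_sq_ge {η u : ℝ} (hη : 0 < η) (hu : η ≤ |u|) :
    (1 - Real.exp (-η)) ^ 2 ≤ (1 - Real.exp u) ^ 2 := by
  have h0 : 0 < 1 - Real.exp (-η) := by
    have : Real.exp (-η) < 1 := by
      rw [Real.exp_lt_one_iff]; linarith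
    linarith
  rcases le_abs.mp hu with h | h
  · -- `η ≤ u`
    have h1 : Real.exp η ≤ Real.exp u := Real.exp_le_exp.mpr h
    have h2 : 1 - Real.exp (-η) ≤ Real.exp η - 1 := by
      have h3 : Real.exp η * Real.exp (-η) = 1 := by rw [← Real.exp_add]; simp
      have h4 : 1 < Real.exp η := by rw [Real.one_lt_exp_iff]; exact hη
      nlinarith [Real.exp_pos (-η)]
    have h5 : 1 - Real.exp (-η) ≤ Real.exp u - 1 := by linarith
    have h6 : (1 - Real.exp u) ^ 2 = (Real.exp u - 1) ^ 2 := by ring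
    rw [h6]
    exact pow_le_pow_left₀ h0.le h5 2
  · -- `u ≤ -η`
    have h1 : Real.exp u ≤ Real.exp (-η) := Real.exp_le_exp.mpr (by linarith)
    exact pow_le_pow_left₀ h0.le (by linarith) 2

/-- For `g 0 = 0` the functions `(g · rho N)(cut m − ecut2 m)` approximate `g · cut m` uniformly. -/
theorem exists_approx (g : ℝ →ᵇ ℂ) (hg : g 0 = 0) (m : ℕ) {ε : ℝ} (hε : 0 < ε) :
    ∃ N : ℕ, ‖g * cut m - (g * rho N) * (cut m - ecut2 m)‖ ≤ ε := by
  -- continuity at `0`
  have hcont : ContinuousAt (g : ℝ → ℂ) 0 := g.continuous.continuousAt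
  rw [Metric.continuousAt_iff] at hcont
  obtain ⟨η, hη, hηg⟩ := hcont ε hε
  set q : ℝ := (1 - Real.exp (-η)) ^ 2 with hq
  have hq0 : 0 < q := by
    have : Real.exp (-η) < 1 := by rw [Real.exp_lt_one_iff]; linarith
    have : 0 < 1 - Real.exp (-η) := by linarith
    positivity
  obtain ⟨N, hN⟩ := exists_nat_ge (‖g‖ / (ε * q))
  refine ⟨N, ?_⟩
  rw [BoundedContinuousFunction.norm_le hε.le]
  intro u
  rw [approx_pointwise, norm_mul, norm_mul, Complex.norm_real, Real.norm_eq_abs]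
  have hd : 0 < 1 + (N : ℝ) * (1 - Real.exp u) ^ 2 := by positivity
  rw [abs_of_pos (by positivity)]
  have hc : ‖cut m u‖ ≤ 1 := (BoundedContinuousFunction.norm_coe_le_norm (cut m) u).trans
    (norm_cut_le m)
  have hfrac : 1 / (1 + (N : ℝ) * (1 - Real.exp u) ^ 2) ≤ 1 := by
    rw [div_le_one hd]
    have : (0 : ℝ) ≤ (N : ℝ) * (1 - Real.exp u) ^ 2 := by positivity
    linarith
  have hfrac0 : 0 ≤ 1 / (1 + (N : ℝ) * (1 - Real.exp u) ^ 2) := by positivity
  by_cases hu : |u| < η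
  · -- near `0`: `‖g u‖ < ε`
    have hgu : ‖g u‖ < ε := by
      have := hηg (x := u) (by rw [Real.dist_eq, sub_zero]; exact hu)
      rwa [hg, dist_zero_right] at this
    calc ‖g u‖ * ‖cut m u‖ * (1 / (1 + (N : ℝ) * (1 - Real.exp u) ^ 2))
        ≤ ε * 1 * 1 := by
          apply mul_le_mul (mul_le_mul hgu.le hc (norm_nonneg _) hε.le) hfrac hfrac0
          positivity
      _ = ε := by ring
  · -- away from `0`
    have hu' : η ≤ |u| := le_of_not_gt hu
    have hge : q ≤ (1 - Real.exp u) ^ 2 := one_sub_exp_sq_ge hη hu'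
    have hgn : ‖g u‖ ≤ ‖g‖ := BoundedContinuousFunction.norm_coe_le_norm g u
    have hNq : ‖g‖ ≤ ε * ((N : ℝ) * q) := by
      have h1 : ‖g‖ / (ε * q) * (ε * q) = ‖g‖ := div_mul_cancel₀ _ (by positivity)
      have h2 : ‖g‖ / (ε * q) * (ε * q) ≤ (N : ℝ) * (ε * q) :=
        mul_le_mul_of_nonneg_right hN (by positivity)
      nlinarith
    have hfr : ‖g‖ * (1 / (1 + (N : ℝ) * (1 - Real.exp u) ^ 2)) ≤ ε := by
      rw [mul_one_div, div_le_iff₀ hd]
      have hN0 : (0 : ℝ) ≤ N := Nat.cast_nonneg N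
      have : (N : ℝ) * q ≤ (N : ℝ) * (1 - Real.exp u) ^ 2 := mul_le_mul_of_nonneg_left hge hN0
      nlinarith
    calc ‖g u‖ * ‖cut m u‖ * (1 / (1 + (N : ℝ) * (1 - Real.exp u) ^ 2))
        ≤ ‖g‖ * 1 * (1 / (1 + (N : ℝ) * (1 - Real.exp u) ^ 2)) := by
          apply mul_le_mul_of_nonneg_right _ hfrac0
          exact mul_le_mul hgn hc (norm_nonneg _) (norm_nonneg _)
      _ = ‖g‖ * (1 / (1 + (N : ℝ) * (1 - Real.exp u) ^ 2)) := by ring
      _ ≤ ε := hfr

/-- Step 3: a function vanishing at `0` kills the vacuum (after a cut-off). -/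
theorem apply_mul_cut_vac_of_zero (S : ModularDatum H) (g : ℝ →ᵇ ℂ) (hg : g 0 = 0) (m : ℕ) :
    S.D.apply (g * cut m) S.vac = 0 := by
  rw [← norm_le_zero_iff]
  refine le_of_forall_pos_le_add (fun ε hε => ?_)
  obtain ⟨N, hN⟩ := exists_approx g hg m hε
  have h1 : S.D.apply (g * cut m) S.vac
      = S.D.apply (g * cut m - (g * rho N) * (cut m - ecut2 m)) S.vac := by
    rw [map_sub, sub_apply, apply_mul_cut_sub_vac, sub_zero]
  rw [h1, zero_add]
  calc ‖S.D.apply (g * cut m - (g * rho N) * (cut m - ecut2 m)) S.vac‖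
      ≤ ‖g * cut m - (g * rho N) * (cut m - ecut2 m)‖ * ‖S.vac‖ := norm_apply_apply_le _ _ _
    _ ≤ ε * 1 := by rw [S.norm_vac]; exact mul_le_mul_of_nonneg_right hN zero_le_one
    _ = ε := mul_one ε

/-- **C1.** `f(D) ξ = f(0) ξ` for every bounded continuous `f`. -/
theorem apply_vac (S : ModularDatum H) (f : ℝ →ᵇ ℂ) : S.D.apply f S.vac = f 0 • S.vac := by
  have key : ∀ m : ℕ, S.D.apply f (S.D.apply (cut m) S.vac) = f 0 • S.D.apply (cut m) S.vac := by
    intro m
    have h := apply_mul_cut_vac_of_zero S (f - BoundedContinuousFunction.const ℝ (f 0))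
      (by simp) m
    have e : (f - BoundedContinuousFunction.const ℝ (f 0)) * cut m = f * cut m - f 0 • cut m := by
      ext u
      simp [sub_mul]
    rw [e, map_sub, sub_apply, map_smul, smul_apply, sub_eq_zero,
      apply_mul] at h
    exact h
  have hlim := tendsto_cut_apply S.D S.vac
  have h1 : Tendsto (fun m : ℕ => S.D.apply f (S.D.apply (cut m) S.vac)) atTop
      (𝓝 (S.D.apply f S.vac)) := ((S.D.apply f).continuous.tendsto _).comp hlim
  have h2 : Tendsto (fun m : ℕ => f 0 • S.D.apply (cut m) S.vac) atTop (𝓝 (f 0 • S.vac)) :=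
    hlim.const_smul _
  exact tendsto_nhds_unique h1 (h2.congr (fun m => (key m).symm))

/-- **C1.** The vacuum is fixed by the unitary group. -/
theorem wave_vac (S : ModularDatum H) (t : ℝ) : S.D.wave t S.vac = S.vac := by
  rw [wave_def, apply_vac, character_apply]
  simp

end Crest.Agent.Helper69.S0112
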